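import Vale.Agent.Lib.P358.Ent

/-!
# P358G, module G2: Peierls inequality and the determinant identity
-/

namespace Vale.Agent.Lib.P358G

open Matrix
open scoped ComplexOrder

/-- Jensen for the diagonal entries of `W diag(κ) Wᴴ`, `W` unitary. -/
theorem sum_le_sum_diag {n : Type*} [Fintype n] [DecidableEq n] {W M : Matrix n n ℂ} {κ : n → ℝ}
    (hW : Wᴴ * W = 1) (hκ : ∀ j, 0 ≤ κ j)
    (hM : M = W * (diagonal fun j => (κ j : ℂ)) * Wᴴ) {F : ℝ → ℝ}
    (hF : ConcaveOn ℝ (Set.Ici 0) F) : ∑ j, F (κ j) ≤ ∑ i, F (M i i).re := by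
  have hWW : W * Wᴴ = 1 := mul_eq_one_comm.mp hW
  have hdiag : ∀ i, (M i i).re = ∑ j, Complex.normSq (W i j) * κ j := by
    intro i
    have e : M i i = ∑ j, ((Complex.normSq (W i j) * κ j : ℝ) : ℂ) := by
      rw [hM, Matrix.mul_apply]
      refine Finset.sum_congr rfl fun j _ => ?_
      rw [Matrix.mul_diagonal, conjTranspose_apply]
      push_cast
      rw [← Complex.mul_conj]
      simp only [RCLike.star_def]
      ring
    rw [e, Complex.re_sum]
    simp only [Complex.ofReal_re]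
  have hrow : ∀ i, ∑ j, Complex.normSq (W i j) = 1 := by
    intro i
    have h := congrFun (congrFun hWW i) i
    rw [Matrix.mul_apply, Matrix.one_apply_eq] at h
    have e : ∀ j, W i j * Wᴴ j i = ((Complex.normSq (W i j) : ℝ) : ℂ) := by
      intro j
      rw [conjTranspose_apply, ← Complex.mul_conj]
      rfl
    rw [Finset.sum_congr rfl fun j _ => e j] at h
    exact_mod_cast h
  have hcol : ∀ j, ∑ i, Complex.normSq (W i j) = 1 := by
    intro j
    have h := congrFun (congrFun hW j) j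
    rw [Matrix.mul_apply, Matrix.one_apply_eq] at h
    have e : ∀ i, Wᴴ j i * W i j = ((Complex.normSq (W i j) : ℝ) : ℂ) := by
      intro i
      rw [conjTranspose_apply, ← Complex.mul_conj, mul_comm]
      rfl
    rw [Finset.sum_congr rfl fun i _ => e i] at h
    exact_mod_cast h
  have hconc : ∀ i, ∑ j, Complex.normSq (W i j) * F (κ j) ≤ F (M i i).re := by
    intro i
    have h := hF.le_map_sum (t := Finset.univ)
      (w := fun j => Complex.normSq (W i j)) (p := κ)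
      (fun j _ => Complex.normSq_nonneg _) (hrow i) (fun j _ => hκ j)
    simp only [smul_eq_mul] at h
    rw [hdiag i]
    exact h
  calc ∑ j, F (κ j)
      = ∑ j, (∑ i, Complex.normSq (W i j)) * F (κ j) := by
        refine Finset.sum_congr rfl fun j _ => ?_
        rw [hcol j, one_mul]
    _ = ∑ i, ∑ j, Complex.normSq (W i j) * F (κ j) := by
        rw [Finset.sum_comm]
        refine Finset.sum_congr rfl fun j _ => ?_
        rw [Finset.sum_mul]
    _ ≤ _ := Finset.sum_le_sum fun i _ => hconc i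

/-- diagonalisation with an explicit unitary matrix -/
theorem exists_diag {n : Type*} [Fintype n] [DecidableEq n] {K : Matrix n n ℂ}
    (hK : K.IsHermitian) : ∃ V : Matrix n n ℂ, Vᴴ * V = 1 ∧ V * Vᴴ = 1 ∧
      K = V * (diagonal fun j => (hK.eigenvalues j : ℂ)) * Vᴴ := by
  refine ⟨(hK.eigenvectorUnitary : Matrix n n ℂ),
    Unitary.star_mul_self_of_mem hK.eigenvectorUnitary.2,
    Unitary.mul_star_self_of_mem hK.eigenvectorUnitary.2, ?_⟩
  have e := hK.spectral_theorem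
  rw [Unitary.conjStarAlgAut_apply] at e
  exact e

/-- for any orthonormal basis `U`, `∑ F (κ_j) ≤ ∑ F ((Uᴴ K U)_ii)` -/
theorem sum_le_conj {n : Type*} [Fintype n] [DecidableEq n] {K U : Matrix n n ℂ}
    (hK : K.PosSemidef) (hU : U * Uᴴ = 1) {F : ℝ → ℝ} (hF : ConcaveOn ℝ (Set.Ici 0) F) :
    ∑ j, F (hK.isHermitian.eigenvalues j) ≤ ∑ i, F ((Uᴴ * K * U) i i).re := by
  obtain ⟨V, hV, hV', hKV⟩ := exists_diag hK.isHermitian
  refine sum_le_sum_diag (W := Uᴴ * V) (κ := hK.isHermitian.eigenvalues) ?_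
    (fun j => hK.eigenvalues_nonneg j) ?_ hF
  · rw [conjTranspose_mul, conjTranspose_conjTranspose, mul_assoc, ← mul_assoc U, hU, one_mul, hV]
  · conv_lhs => rw [hKV]
    rw [conjTranspose_mul, conjTranspose_conjTranspose]
    simp only [mul_assoc]

/-- Peierls inequality -/
theorem peierls {n : Type*} [Fintype n] [DecidableEq n] {K K' : Matrix n n ℂ}
    (hK : K.PosSemidef) (hK' : K'.PosSemidef) {F G : ℝ → ℝ} (hF : ConcaveOn ℝ (Set.Ici 0) F)
    (hG : ConcaveOn ℝ (Set.Ici 0) G)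
    (hFG : ∀ k k' : ℝ, 0 ≤ k → 0 ≤ k' → F k + G k' ≤ Real.log (1 + k + k')) :
    ∑ j, F (hK.isHermitian.eigenvalues j) + ∑ j, G (hK'.isHermitian.eigenvalues j) ≤
      Real.log ‖(1 + K + K').det‖ := by
  have hS : (K + K').PosSemidef := hK.add hK'
  obtain ⟨U, hU, hU', hSU⟩ := exists_diag hS.isHermitian
  have hlog : Real.log ‖(1 + K + K').det‖ =
      ∑ i, Real.log (1 + hS.isHermitian.eigenvalues i) := by
    have h := P358.det_one_add_smul hS.isHermitian 1
    rw [one_smul] at h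
    rw [add_assoc, h, norm_prod, Real.log_prod]
    · refine Finset.sum_congr rfl fun i _ => ?_
      have h0 := hS.eigenvalues_nonneg i
      have e : (1 + 1 * (hS.isHermitian.eigenvalues i : ℂ)) =
          ((1 + hS.isHermitian.eigenvalues i : ℝ) : ℂ) := by push_cast; ring
      rw [e, Complex.norm_real, Real.norm_of_nonneg (by linarith)]
    · intro i _
      have h0 := hS.eigenvalues_nonneg i
      have e : (1 + 1 * (hS.isHermitian.eigenvalues i : ℂ)) =
          ((1 + hS.isHermitian.eigenvalues i : ℝ) : ℂ) := by push_cast; ring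
      rw [e, Complex.norm_real, Real.norm_of_nonneg (by linarith)]
      linarith
  rw [hlog]
  have hd : Uᴴ * (K + K') * U = diagonal fun j => (hS.isHermitian.eigenvalues j : ℂ) := by
    conv_lhs => rw [hSU]
    calc Uᴴ * (U * (diagonal fun j => (hS.isHermitian.eigenvalues j : ℂ)) * Uᴴ) * U
        = (Uᴴ * U) * (diagonal fun j => (hS.isHermitian.eigenvalues j : ℂ)) * (Uᴴ * U) := by
          simp only [mul_assoc]
      _ = _ := by rw [hU, one_mul, mul_one]
  have hi : ∀ i, ((Uᴴ * K * U) i i).re + ((Uᴴ * K' * U) i i).re =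
      hS.isHermitian.eigenvalues i := by
    intro i
    have h := congrArg Complex.re (congrFun (congrFun hd i) i)
    rw [diagonal_apply_eq, Complex.ofReal_re] at h
    rw [← h, mul_add, add_mul, Matrix.add_apply, Complex.add_re]
  have hnn : ∀ {P : Matrix n n ℂ}, P.PosSemidef → ∀ i, 0 ≤ ((Uᴴ * P * U) i i).re := by
    intro P hP i
    have h := (hP.conjTranspose_mul_mul_same U).diag_nonneg (i := i)
    exact (Complex.le_def.mp h).1
  refine (add_le_add (sum_le_conj hK hU' hF) (sum_le_conj hK' hU' hG)).trans ?_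
  rw [← Finset.sum_add_distrib]
  refine Finset.sum_le_sum fun i _ => ?_
  refine (hFG _ _ (hnn hK i) (hnn hK' i)).trans (le_of_eq ?_)
  rw [add_assoc, hi]

/-- determinant identity -/
theorem det_identity {k a b : Type*} [Fintype k] [DecidableEq k] [Fintype a] [DecidableEq a]
    [Fintype b] [DecidableEq b] (A : Matrix k a ℂ) (B : Matrix k b ℂ) (Q : Matrix a a ℂ)
    (R : Matrix b b ℂ) (hQ : IsUnit Q.det) (hR : IsUnit R.det) :
    (fromBlocks (Aᴴ * A + Q) (Aᴴ * B) (Bᴴ * A) (Bᴴ * B + R)).det =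
      Q.det * R.det * (1 + A * Q⁻¹ * Aᴴ + B * R⁻¹ * Bᴴ).det := by
  have hD : (fromBlocks Q 0 0 R).det = Q.det * R.det := det_fromBlocks_zero₂₁ _ _ _
  have hDD : fromBlocks Q 0 0 R * fromBlocks Q⁻¹ 0 0 R⁻¹ = 1 := by
    rw [fromBlocks_multiply]
    simp only [Matrix.mul_zero, Matrix.zero_mul, add_zero, zero_add, Matrix.mul_nonsing_inv _ hQ,
      Matrix.mul_nonsing_inv _ hR, fromBlocks_one]
  have h1 : fromBlocks (Aᴴ * A + Q) (Aᴴ * B) (Bᴴ * A) (Bᴴ * B + R) =
      fromBlocks Q 0 0 R * (1 + fromBlocks Q⁻¹ 0 0 R⁻¹ * (fromRows Aᴴ Bᴴ * fromCols A B)) := by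
    rw [Matrix.mul_add, Matrix.mul_one, ← Matrix.mul_assoc, hDD, Matrix.one_mul,
      fromRows_mul_fromCols, fromBlocks_add]
    simp only [zero_add, add_comm Q, add_comm R]
  rw [h1, det_mul, hD, ← Matrix.mul_assoc, det_one_add_mul_comm]
  congr 2
  rw [← Matrix.mul_assoc, fromCols_mul_fromBlocks, fromCols_mul_fromRows]
  simp only [Matrix.mul_zero, zero_add, add_zero, add_assoc]

/-- `log det (r + Q)` in terms of eigenvalues -/
theorem log_det_add {n : Type*} [Fintype n] [DecidableEq n] {Q : Matrix n n ℂ}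
    (hQ : Q.PosSemidef) {r : ℝ} (hr : 0 < r) :
    Real.log ‖((r : ℂ) • (1 : Matrix n n ℂ) + Q).det‖ =
      ∑ i, Real.log (r + hQ.isHermitian.eigenvalues i) := by
  obtain ⟨U, hU, hU', hQU⟩ := exists_diag hQ.isHermitian
  have e : (r : ℂ) • (1 : Matrix n n ℂ) + Q =
      U * (diagonal fun j => ((r + hQ.isHermitian.eigenvalues j : ℝ) : ℂ)) * Uᴴ := by
    have e1 : (diagonal fun j => ((r + hQ.isHermitian.eigenvalues j : ℝ) : ℂ)) =
        (r : ℂ) • (1 : Matrix n n ℂ) + diagonal fun j => (hQ.isHermitian.eigenvalues j : ℂ) := by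
      ext i j
      by_cases h : i = j
      · subst h
        simp
      · simp [h]
    rw [e1, Matrix.mul_add, Matrix.add_mul, Matrix.mul_smul, Matrix.smul_mul, Matrix.mul_one, hU',
      ← hQU]
  have h1 : U.det * Uᴴ.det = 1 := by rw [← det_mul, hU', det_one]
  have e2 : ((r : ℂ) • (1 : Matrix n n ℂ) + Q).det =
      ∏ j, ((r + hQ.isHermitian.eigenvalues j : ℝ) : ℂ) := by
    rw [e, det_mul, det_mul, det_diagonal, mul_right_comm, h1, one_mul]
  have hpos : ∀ i, 0 < r + hQ.isHermitian.eigenvalues i := fun i => by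
    have := hQ.eigenvalues_nonneg i
    linarith
  rw [e2, norm_prod, Real.log_prod]
  · refine Finset.sum_congr rfl fun i _ => ?_
    rw [Complex.norm_real, Real.norm_of_nonneg (hpos i).le]
  · intro i _
    rw [Complex.norm_real, Real.norm_of_nonneg (hpos i).le]
    exact (hpos i).ne'

/-- `r + Q` is positive definite -/
theorem posDef_add {n : Type*} [Fintype n] [DecidableEq n] {Q : Matrix n n ℂ}
    (hQ : Q.PosSemidef) {r : ℝ} (hr : 0 < r) : ((r : ℂ) • (1 : Matrix n n ℂ) + Q).PosDef := by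
  refine PosDef.add_posSemidef ?_ hQ
  exact PosDef.smul PosDef.one (by exact_mod_cast hr)

/-- the compression `K_r = A (r + Q)⁻¹ Aᴴ` is positive semidefinite -/
theorem posSemidef_res {k a : Type*} [Fintype k] [Fintype a] [DecidableEq a]
    (A : Matrix k a ℂ) {Q : Matrix a a ℂ} (hQ : Q.PosSemidef) {r : ℝ} (hr : 0 < r) :
    (A * ((r : ℂ) • (1 : Matrix a a ℂ) + Q)⁻¹ * Aᴴ).PosSemidef :=
  (posDef_add hQ hr).inv.posSemidef.mul_mul_conjTranspose_same A

/-- Step 1a: `log det (r + M) = log det (r + Q) + log det (r + R) + log det (1 + K_r + K'_r)` -/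
theorem log_det_identity {k a b : Type*} [Fintype k] [DecidableEq k] [Fintype a] [DecidableEq a]
    [Fintype b] [DecidableEq b] (A : Matrix k a ℂ) (B : Matrix k b ℂ) {Q : Matrix a a ℂ}
    {R : Matrix b b ℂ} (hQ : Q.PosSemidef) (hR : R.PosSemidef)
    (hM : (fromBlocks (Aᴴ * A + Q) (Aᴴ * B) (Bᴴ * A) (Bᴴ * B + R)).PosSemidef)
    {r : ℝ} (hr : 0 < r) :
    ∑ i, Real.log (r + hM.isHermitian.eigenvalues i) =
      ∑ i, Real.log (r + hQ.isHermitian.eigenvalues i) +
      ∑ i, Real.log (r + hR.isHermitian.eigenvalues i) +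
      Real.log ‖(1 + A * ((r : ℂ) • (1 : Matrix a a ℂ) + Q)⁻¹ * Aᴴ +
        B * ((r : ℂ) • (1 : Matrix b b ℂ) + R)⁻¹ * Bᴴ).det‖ := by
  rw [← log_det_add hM hr, ← log_det_add hQ hr, ← log_det_add hR hr]
  have hQu := (posDef_add hQ hr).isUnit
  have hRu := (posDef_add hR hr).isUnit
  rw [Matrix.isUnit_iff_isUnit_det] at hQu hRu
  have h := det_identity A B _ _ hQu hRu
  have e : (r : ℂ) • (1 : Matrix (a ⊕ b) (a ⊕ b) ℂ) +
      fromBlocks (Aᴴ * A + Q) (Aᴴ * B) (Bᴴ * A) (Bᴴ * B + R) =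
      fromBlocks (Aᴴ * A + ((r : ℂ) • (1 : Matrix a a ℂ) + Q)) (Aᴴ * B) (Bᴴ * A)
        (Bᴴ * B + ((r : ℂ) • (1 : Matrix b b ℂ) + R)) := by
    rw [← fromBlocks_one, fromBlocks_smul, fromBlocks_add]
    simp only [smul_zero, zero_add]
    congr 1 <;> abel
  have hK := posSemidef_res A hQ hr
  have hK' := posSemidef_res B hR hr
  have hne : (1 + A * ((r : ℂ) • (1 : Matrix a a ℂ) + Q)⁻¹ * Aᴴ +
        B * ((r : ℂ) • (1 : Matrix b b ℂ) + R)⁻¹ * Bᴴ).det ≠ 0 := by
    have hp : (1 + A * ((r : ℂ) • (1 : Matrix a a ℂ) + Q)⁻¹ * Aᴴ +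
        B * ((r : ℂ) • (1 : Matrix b b ℂ) + R)⁻¹ * Bᴴ).PosDef :=
      (PosDef.one.add_posSemidef hK).add_posSemidef hK'
    exact hp.det_pos.ne'
  rw [e, h, norm_mul, norm_mul, Real.log_mul, Real.log_mul]
  · exact norm_ne_zero_iff.mpr hQu.ne_zero
  · exact norm_ne_zero_iff.mpr hRu.ne_zero
  · exact mul_ne_zero (norm_ne_zero_iff.mpr hQu.ne_zero) (norm_ne_zero_iff.mpr hRu.ne_zero)
  · exact norm_ne_zero_iff.mpr hne

/-- Steps 1a and 3 together -/
theorem log_det_ge {k a b : Type*} [Fintype k] [DecidableEq k] [Fintype a] [DecidableEq a]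
    [Fintype b] [DecidableEq b] (A : Matrix k a ℂ) (B : Matrix k b ℂ) {Q : Matrix a a ℂ}
    {R : Matrix b b ℂ} (hQ : Q.PosSemidef) (hR : R.PosSemidef)
    (hM : (fromBlocks (Aᴴ * A + Q) (Aᴴ * B) (Bᴴ * A) (Bᴴ * B + R)).PosSemidef)
    {F G : ℝ → ℝ} (hF : ConcaveOn ℝ (Set.Ici 0) F) (hG : ConcaveOn ℝ (Set.Ici 0) G)
    (hFG : ∀ k k' : ℝ, 0 ≤ k → 0 ≤ k' → F k + G k' ≤ Real.log (1 + k + k'))
    {r : ℝ} (hr : 0 < r) :
    ∑ i, Real.log (r + hQ.isHermitian.eigenvalues i) +
      ∑ i, Real.log (r + hR.isHermitian.eigenvalues i) +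
      (∑ j, F ((posSemidef_res A hQ hr).isHermitian.eigenvalues j) +
        ∑ j, G ((posSemidef_res B hR hr).isHermitian.eigenvalues j)) ≤
      ∑ i, Real.log (r + hM.isHermitian.eigenvalues i) := by
  rw [log_det_identity A B hQ hR hM hr]
  have h := peierls (posSemidef_res A hQ hr) (posSemidef_res B hR hr) hF hG hFG
  linarith

end Vale.Agent.Lib.P358G
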